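import Vale.Agent.P235.R2.RED.Defs

/-!
P235-M, reduction (helper673).  In a sweep with tight lengths the path metric on each path `P i` is
the difference of the heights.
-/

namespace Vale.Agent.P235.R2.H673

open Vale.Agent.P235 Vale.Agent.P235.Red

variable {V : Type} {G : SimpleGraph V} {ℓ : Sym2 V → ℝ} {h : V → ℝ}

/-- every walk is at least as long as the difference of the heights of its ends -/
theorem abs_sub_le_walk (hl : ∀ u v, G.Adj u v → |h u - h v| ≤ ℓ s(u, v)) {x y : V}
    (w : G.Walk x y) : |h x - h y| ≤ (w.edges.map ℓ).sum := by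
  induction w with
  | nil => simp
  | @cons u v z a p ih =>
    rw [SimpleGraph.Walk.edges_cons, List.map_cons, List.sum_cons]
    have h1 := hl u v a
    have h2 : |h u - h z| ≤ |h u - h v| + |h v - h z| := abs_sub_le _ _ _
    linarith

theorem walk_nonneg (hl : ∀ u v, G.Adj u v → 0 ≤ ℓ s(u, v)) {x y : V} (w : G.Walk x y) :
    0 ≤ (w.edges.map ℓ).sum := by
  induction w with
  | nil => simp
  | @cons u v z a p ih =>
    rw [SimpleGraph.Walk.edges_cons, List.map_cons, List.sum_cons]
    have h1 := hl u v a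
    linarith

theorem pathDist_le_walk (hl : ∀ u v, G.Adj u v → 0 ≤ ℓ s(u, v)) {x y : V} (w : G.Walk x y) :
    pathDist G ℓ x y ≤ (w.edges.map ℓ).sum :=
  ciInf_le ⟨0, by rintro _ ⟨w, rfl⟩; exact walk_nonneg hl w⟩ w

theorem pathDist_nonneg' (hl : ∀ u v, G.Adj u v → 0 ≤ ℓ s(u, v)) (x y : V) :
    0 ≤ pathDist G ℓ x y :=
  Real.iInf_nonneg fun w => walk_nonneg hl w

/-- the path metric dominates the difference of the heights, for vertices joined by a walk -/
theorem abs_sub_le_pathDist (hl : ∀ u v, G.Adj u v → |h u - h v| ≤ ℓ s(u, v)) {x y : V}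
    (hr : G.Reachable x y) : |h x - h y| ≤ pathDist G ℓ x y := by
  have : Nonempty (G.Walk x y) := hr
  exact le_ciInf fun w => abs_sub_le_walk hl w

/-- on one path of a sweep there is a walk whose length is the difference of the heights -/
theorem exists_walk [Finite V] {N : ℕ} {P : ℕ → Set V} (hS : Sweep G h N P)
    (hl : ∀ u v, G.Adj u v → ℓ s(u, v) = |h u - h v|) {i : ℕ} (hi : i ≤ N) :
    ∀ n : ℕ, ∀ u ∈ P i, ∀ v ∈ P i, h u ≤ h v → {w ∈ P i | h u < h w ∧ h w < h v}.ncard = n →
      ∃ w : G.Walk u v, (w.edges.map ℓ).sum = h v - h u := by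
  intro n
  induction n using Nat.strong_induction_on with
  | _ n ih =>
    intro u hu v hv huv hn
    rcases eq_or_lt_of_le huv with he | hlt
    · obtain rfl := hS.inj i hi u hu v hv he
      exact ⟨SimpleGraph.Walk.nil, by simp⟩
    · by_cases hb : ∃ w ∈ P i, h u < h w ∧ h w < h v
      · obtain ⟨w, hw, h1, h2⟩ := hb
        have c1 : {z ∈ P i | h u < h z ∧ h z < h w}.ncard < n := by
          rw [← hn]
          refine Set.ncard_lt_ncard ⟨fun z hz => ⟨hz.1, hz.2.1, hz.2.2.trans h2⟩, fun hc => ?_⟩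
            (Set.toFinite _)
          exact lt_irrefl _ (hc ⟨hw, h1, h2⟩).2.2
        have c2 : {z ∈ P i | h w < h z ∧ h z < h v}.ncard < n := by
          rw [← hn]
          refine Set.ncard_lt_ncard ⟨fun z hz => ⟨hz.1, h1.trans hz.2.1, hz.2.2⟩, fun hc => ?_⟩
            (Set.toFinite _)
          exact lt_irrefl _ (hc ⟨hw, h1, h2⟩).2.1
        obtain ⟨p, hp⟩ := ih _ c1 u hu w hw h1.le rfl
        obtain ⟨q, hq⟩ := ih _ c2 w hw v hv h2.le rfl
        refine ⟨p.append q, ?_⟩
        rw [SimpleGraph.Walk.edges_append, List.map_append, List.sum_append, hp, hq]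
        ring
      · have ha : G.Adj u v := hS.conn i hi u hu v hv hlt fun w hw hh => hb ⟨w, hw, hh⟩
        refine ⟨SimpleGraph.Walk.cons ha SimpleGraph.Walk.nil, ?_⟩
        rw [SimpleGraph.Walk.edges_cons, List.map_cons, List.sum_cons, hl u v ha,
          abs_sub_comm, abs_of_pos (sub_pos.2 hlt)]
        simp

theorem pathDist_comm' (G : SimpleGraph V) (ℓ : Sym2 V → ℝ) (x y : V) :
    pathDist G ℓ x y = pathDist G ℓ y x := by
  refine (Equiv.iInf_congr (⟨fun w => w.reverse, fun w => w.reverse, fun w => by simp,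
    fun w => by simp⟩ : G.Walk x y ≃ G.Walk y x) fun w => ?_)
  simp

/-- **On one path of a sweep the path metric is the difference of the heights.** -/
theorem pathDist_bag [Finite V] {N : ℕ} {P : ℕ → Set V} (hS : Sweep G h N P)
    (hl : ∀ u v, G.Adj u v → ℓ s(u, v) = |h u - h v|) {i : ℕ} (hi : i ≤ N) {u v : V}
    (hu : u ∈ P i) (hv : v ∈ P i) : pathDist G ℓ u v = |h u - h v| := by
  have key : ∀ u ∈ P i, ∀ v ∈ P i, h u ≤ h v → pathDist G ℓ u v = |h u - h v| := by
    intro u hu v hv huv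
    obtain ⟨w, hw⟩ := exists_walk hS hl hi _ u hu v hv huv rfl
    apply le_antisymm
    · refine (pathDist_le_walk (fun a b hab => by rw [hl a b hab]; exact abs_nonneg _) w).trans ?_
      rw [hw, abs_sub_comm]
      exact le_abs_self _
    · exact abs_sub_le_pathDist (fun a b hab => (hl a b hab).ge) ⟨w⟩
  rcases le_total (h u) (h v) with h1 | h1
  · exact key u hu v hv h1
  · rw [pathDist_comm', key v hv u hu h1, abs_sub_comm]

/-- a sweep is connected -/
theorem sweep_connected [Finite V] {N : ℕ} {P : ℕ → Set V} (hS : Sweep G h N P) : G.Connected := by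
  obtain ⟨s, hs, hsb⟩ := hS.bot
  set ℓ' : Sym2 V → ℝ := Sym2.lift ⟨fun u v => |h u - h v|, fun u v => abs_sub_comm _ _⟩
  have hr : ∀ v, G.Reachable s v := by
    intro v
    obtain ⟨i, hi, hv⟩ := hS.every v
    obtain ⟨w, -⟩ := exists_walk (ℓ := ℓ') hS (fun u v _ => rfl) hi _ s (hs i hi) v hv (hsb v) rfl
    exact ⟨w⟩
  have : Nonempty V := ⟨s⟩
  exact ⟨fun u v => (hr u).symm.trans (hr v)⟩

end Vale.Agent.P235.R2.H673
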