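import Vale.Agent.P235.R2.RED.Stmts
import Vale.Agent.P235.R2.H673.SweepBags

/-!
P235-M, reduction (helper673).  Row B: real heights from integral heights.
-/

namespace Vale.Agent.P235.R2.H673

open Vale.Agent.P235 Vale.Agent.P235.Red

variable {V : Type} {G : SimpleGraph V}

/-- comparison of two path metrics, edge by edge -/
theorem pathDist_le_mul {ℓ ℓ' : Sym2 V → ℝ} {C : ℝ} (hC : 0 ≤ C)
    (h0 : ∀ u v, G.Adj u v → 0 ≤ ℓ' s(u, v))
    (hle : ∀ u v, G.Adj u v → ℓ' s(u, v) ≤ C * ℓ s(u, v)) (x y : V) :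
    pathDist G ℓ' x y ≤ C * pathDist G ℓ x y := by
  rcases isEmpty_or_nonempty (G.Walk x y) with he | he
  · simp [pathDist, Real.iInf_of_isEmpty]
  · unfold pathDist
    rw [Real.mul_iInf_of_nonneg hC]
    refine le_ciInf fun w => (pathDist_le_walk h0 w).trans ?_
    clear he
    induction w with
    | nil => simp
    | @cons u v z a p ih =>
      simp only [SimpleGraph.Walk.edges_cons, List.map_cons, List.sum_cons]
      have h1 := hle u v a
      rw [mul_add]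
      linarith

/-- a sweep only depends on the order of the heights -/
theorem Sweep.order {h h' : V → ℝ} {N : ℕ} {P : ℕ → Set V} (hS : Sweep G h N P)
    (ho : ∀ u v, h' u < h' v ↔ h u < h v) : Sweep G h' N P := by
  have hle : ∀ u v, h' u ≤ h' v ↔ h u ≤ h v := fun u v => by
    rw [← not_lt, ← not_lt, ho]
  refine ⟨hS.every, fun u v ha hlt => ?_, fun i hi u hu v hv he => ?_,
    fun i hi u hu v hv hlt hno => ?_, ?_, ?_, hS.convex⟩
  · obtain ⟨i, hi, hu, hv, hw⟩ := hS.cover u v ha ((ho u v).1 hlt)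
    exact ⟨i, hi, hu, hv, fun w hwP hh => hw w hwP ⟨(ho u w).1 hh.1, (ho w v).1 hh.2⟩⟩
  · exact hS.inj i hi u hu v hv
      (le_antisymm ((hle u v).1 he.le) ((hle v u).1 he.ge))
  · exact hS.conn i hi u hu v hv ((ho u v).1 hlt)
      fun w hwP hh => hno w hwP ⟨(ho u w).2 hh.1, (ho w v).2 hh.2⟩
  · obtain ⟨s, h1, h2⟩ := hS.bot
    exact ⟨s, h1, fun v => (hle s v).2 (h2 v)⟩
  · obtain ⟨t, h1, h2⟩ := hS.top
    exact ⟨t, h1, fun v => (hle v t).2 (h2 v)⟩

/-- the gap between different heights -/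
theorem exists_gap [Finite V] (h : V → ℝ) : ∃ δ : ℝ, 0 < δ ∧ ∀ u v, h u < h v → δ ≤ h v - h u := by
  classical
  have := Fintype.ofFinite V
  by_cases hE : ∃ p : V × V, h p.1 < h p.2
  · have hne : (Finset.univ.filter fun p : V × V => h p.1 < h p.2).Nonempty := by
      obtain ⟨p, hp⟩ := hE
      exact ⟨p, by simp [hp]⟩
    obtain ⟨q, hq, hmin⟩ := Finset.exists_min_image _ (fun p : V × V => h p.2 - h p.1) hne
    rw [Finset.mem_filter] at hq
    refine ⟨h q.2 - h q.1, sub_pos.2 hq.2, fun u v huv => ?_⟩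
    exact hmin (u, v) (by simp [huv])
  · exact ⟨1, one_pos, fun u v huv => absurd ⟨(u, v), huv⟩ hE⟩

/-- integral heights close to a multiple of the given heights -/
theorem exists_nat_height [Finite V] (h : V → ℝ) : ∃ (m : ℝ) (h' : V → ℕ), 0 < m ∧
    (∀ u v, ((h' u : ℝ) < h' v ↔ h u < h v)) ∧
    ∀ u v, h u ≠ h v → |(h' u : ℝ) - h' v| ≤ 4 / 3 * (m * |h u - h v|) ∧
      2 / 3 * (m * |h u - h v|) ≤ |(h' u : ℝ) - h' v| := by
  classical
  obtain ⟨δ, hδ, hgap⟩ := exists_gap h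
  obtain ⟨b, hb⟩ : ∃ b : ℝ, ∀ v, b ≤ h v := by
    obtain ⟨b, hb⟩ := (Set.finite_range h).bddBelow
    exact ⟨b, fun v => hb ⟨v, rfl⟩⟩
  have hm : 0 < 3 / δ := by positivity
  set m : ℝ := 3 / δ with hmdef
  have hmδ : m * δ = 3 := by rw [hmdef]; field_simp
  set g : V → ℝ := fun v => m * (h v - b) with hg
  have hg0 : ∀ v, 0 ≤ g v := fun v => mul_nonneg hm.le (sub_nonneg.2 (hb v))
  have hf1 : ∀ v, ((⌊g v⌋₊ : ℕ) : ℝ) ≤ g v := fun v => Nat.floor_le (hg0 v)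
  have hf2 : ∀ v, g v < ((⌊g v⌋₊ : ℕ) : ℝ) + 1 := fun v => Nat.lt_floor_add_one _
  have hstep : ∀ u v, h u < h v → 3 ≤ g v - g u := by
    intro u v huv
    have h1 := hgap u v huv
    have h2 : g v - g u = m * (h v - h u) := by simp only [hg]; ring
    rw [h2, ← hmδ]
    exact mul_le_mul_of_nonneg_left h1 hm.le
  have hlt : ∀ u v, h u < h v → ((⌊g u⌋₊ : ℕ) : ℝ) < ((⌊g v⌋₊ : ℕ) : ℝ) := by
    intro u v huv
    have h1 := hstep u v huv
    have h2 := hf1 u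
    have h3 := hf2 v
    linarith
  have heq : ∀ u v, h u = h v → ((⌊g u⌋₊ : ℕ) : ℝ) = ((⌊g v⌋₊ : ℕ) : ℝ) := by
    intro u v huv
    have : g u = g v := by simp only [hg, huv]
    rw [this]
  refine ⟨m, fun v => ⌊g v⌋₊, hm, fun u v => ⟨fun hh => ?_, hlt u v⟩, ?_⟩
  · by_contra hcon
    rcases eq_or_lt_of_le (not_lt.1 hcon) with h1 | h1
    · exact absurd (heq v u h1) (ne_of_gt hh)
    · exact absurd (hlt v u h1) (not_lt.2 hh.le)
  · have key : ∀ u v, h u < h v →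
        |((⌊g u⌋₊ : ℕ) : ℝ) - ((⌊g v⌋₊ : ℕ) : ℝ)| ≤ 4 / 3 * (m * |h u - h v|) ∧
        2 / 3 * (m * |h u - h v|) ≤ |((⌊g u⌋₊ : ℕ) : ℝ) - ((⌊g v⌋₊ : ℕ) : ℝ)| := by
      intro u v huv
      have h1 := hstep u v huv
      have h2 : g v - g u = m * (h v - h u) := by simp only [hg]; ring
      have h3 : |h u - h v| = h v - h u := by
        rw [abs_sub_comm, abs_of_pos (sub_pos.2 huv)]
      have h4 : |((⌊g u⌋₊ : ℕ) : ℝ) - ((⌊g v⌋₊ : ℕ) : ℝ)| =
          ((⌊g v⌋₊ : ℕ) : ℝ) - ((⌊g u⌋₊ : ℕ) : ℝ) := by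
        rw [abs_sub_comm, abs_of_pos (sub_pos.2 (hlt u v huv))]
      rw [h3, h4, ← h2]
      have a1 := hf1 u
      have a2 := hf2 u
      have a3 := hf1 v
      have a4 := hf2 v
      constructor <;> linarith
    intro u v huv
    rcases lt_or_gt_of_ne huv with h1 | h1
    · exact key u v h1
    · have := key v u h1
      rw [abs_sub_comm (h u) (h v), abs_sub_comm]
      exact this

/-- embeddings are scaled -/
theorem embedsL1_scale {X : Type} {d d' : X → X → ℝ} {C C' c : ℝ} (hc : 0 ≤ c)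
    (h : EmbedsL1 d' C') (hlo : ∀ x y, d x y ≤ c * d' x y)
    (hhi : ∀ x y, c * (C' * d' x y) ≤ C * d x y) : EmbedsL1 d C := by
  obtain ⟨Ω, mΩ, μ, f, hf⟩ := h
  refine ⟨Ω, mΩ, μ, fun x => c • f x, fun x y => ?_⟩
  have h1 : ‖c • f x - c • f y‖ = c * ‖f x - f y‖ := by
    rw [← smul_sub, norm_smul, Real.norm_of_nonneg hc]
  rw [h1]
  exact ⟨(hlo x y).trans (mul_le_mul_of_nonneg_left (hf x y).1 hc),
    (mul_le_mul_of_nonneg_left (hf x y).2 hc).trans (hhi x y)⟩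

/-- **Row B from row A.** -/
theorem rowB_of_rowA (hA : RowA) : RowB := by
  intro f hM V _ G ℓ h N P hfN hS hl hpos
  obtain ⟨m, h', hm, hord, hcmp⟩ := exists_nat_height h
  set ℓ' : Sym2 V → ℝ := Sym2.lift ⟨fun u v => |(h' u : ℝ) - h' v|, fun u v => abs_sub_comm _ _⟩
    with hl'
  have hne : ∀ u v, G.Adj u v → h u ≠ h v := by
    intro u v ha he
    have := hpos u v ha
    rw [hl u v ha, he] at this
    simp at this
  have hE := hA f hM V G ℓ' h' N P hfN (Sweep.order hS hord) fun u v _ => rfl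
  have up : ∀ x y, pathDist G ℓ' x y ≤ 4 / 3 * m * pathDist G ℓ x y := by
    refine pathDist_le_mul (by positivity) (fun u v _ => abs_nonneg _) fun u v ha => ?_
    rw [hl u v ha]
    have := (hcmp u v (hne u v ha)).1
    calc ℓ' s(u, v) = |(h' u : ℝ) - h' v| := rfl
      _ ≤ 4 / 3 * (m * |h u - h v|) := this
      _ = 4 / 3 * m * |h u - h v| := by ring
  have lo : ∀ x y, pathDist G ℓ x y ≤ 3 / (2 * m) * pathDist G ℓ' x y := by
    refine pathDist_le_mul (by positivity) (fun u v ha => (hpos u v ha).le) fun u v ha => ?_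
    rw [hl u v ha]
    have := (hcmp u v (hne u v ha)).2
    calc |h u - h v| = 3 / (2 * m) * (2 / 3 * (m * |h u - h v|)) := by field_simp
      _ ≤ 3 / (2 * m) * |(h' u : ℝ) - h' v| := by gcongr
      _ = 3 / (2 * m) * ℓ' s(u, v) := rfl
  refine embedsL1_scale (c := 3 / (2 * m)) (by positivity) hE lo fun x y => ?_
  have h1 := up x y
  have h2 : 0 ≤ 3 / (2 * m) * (1 + 2 * f N) := by positivity
  calc 3 / (2 * m) * ((1 + 2 * f N) * pathDist G ℓ' x y)
      = 3 / (2 * m) * (1 + 2 * f N) * pathDist G ℓ' x y := by ring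
    _ ≤ 3 / (2 * m) * (1 + 2 * f N) * (4 / 3 * m * pathDist G ℓ x y) :=
        mul_le_mul_of_nonneg_left h1 h2
    _ = (2 + 4 * f N) * pathDist G ℓ x y := by field_simp; ring

/-- the paths of a sweep as bags -/
theorem sweep_bags [Finite V] {ℓ : Sym2 V → ℝ} {h : V → ℝ} {N : ℕ} {P : ℕ → Set V}
    (hS : Sweep G h N P) (hl : ∀ u v, G.Adj u v → ℓ s(u, v) = |h u - h v|)
    (hpos : ∀ u v, G.Adj u v → 0 < ℓ s(u, v)) :
    (∀ v, ∃ i, i ≤ N ∧ v ∈ P i) ∧
    (∀ i j k, i ≤ j → j ≤ k → k ≤ N → ∀ v, v ∈ P i → v ∈ P k → v ∈ P j) ∧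
    (∀ i, i ≤ N → ∀ x ∈ P i, ∀ y ∈ P i, pathDist G ℓ x y = |h x - h y|) ∧
    ∀ u v, G.Adj u v → ∃ i, i ≤ N ∧ u ∈ P i ∧ v ∈ P i := by
  refine ⟨fun v => hS.every v, fun i j k h1 h2 h3 v => hS.convex v i j k h1 h2 h3,
    fun i hi x hx y hy => pathDist_bag hS hl hi hx hy, fun u v ha => ?_⟩
  have hne : h u ≠ h v := by
    intro he
    have := hpos u v ha
    rw [hl u v ha, he] at this
    simp at this
  rcases lt_or_gt_of_ne hne with h1 | h1
  · obtain ⟨i, hi, hu, hv, -⟩ := hS.cover u v ha h1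
    exact ⟨i, hi, hu, hv⟩
  · obtain ⟨i, hi, hv, hu, -⟩ := hS.cover v u ha.symm h1
    exact ⟨i, hi, hu, hv⟩

end Vale.Agent.P235.R2.H673
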