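import Vale.Agent.P235.R2.RED.Bags
import Vale.Agent.P235.R2.H673.SweepBags

/-!
P235-M, reduction (helper673).  The paths of a sweep are bags.
-/

namespace Vale.Agent.P235.R2.H673

open Vale.Agent.P235 Vale.Agent.P235.Red

/-- **A sweep with tight lengths is a sequence of bags.** -/
theorem bags_of_sweep {V : Type} [Finite V] {G : SimpleGraph V} {ℓ : Sym2 V → ℝ} {h : V → ℝ}
    {N : ℕ} {P : ℕ → Set V} (hS : Sweep G h N P) (hl : ∀ u v, G.Adj u v → ℓ s(u, v) = |h u - h v|)
    (hpos : ∀ u v, G.Adj u v → 0 < ℓ s(u, v)) : Bags G ℓ h N P where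
  every := hS.every
  cover u v ha := by
    have hne : h u ≠ h v := by
      intro he
      have := hpos u v ha
      rw [hl u v ha, he] at this
      simp at this
    rcases lt_or_gt_of_ne hne with h1 | h1
    · obtain ⟨i, hi, hu, hv, -⟩ := hS.cover u v ha h1
      exact ⟨i, hi, hu, hv⟩
    · obtain ⟨i, hi, hv, hu, -⟩ := hS.cover v u ha.symm h1
      exact ⟨i, hi, hu, hv⟩
  line i hi u hu v hv := pathDist_bag hS hl hi hu hv
  convex := hS.convex

end Vale.Agent.P235.R2.H673
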