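/-
P235 (helper673).  Subdividing one edge of a plane graph.
-/
import Vale.Agent.P235.R2.H802.Genus

namespace Vale.Agent.P235.R2.H673

open SimpleGraph Vale.Agent.P235.Tight

variable {V : Type}

/-- `G` with the edge `ab` replaced by the path `a, none, b` -/
def subd (G : SimpleGraph V) (a b : V) : SimpleGraph (Option V) where
  Adj
    | some x, some y => G.Adj x y ∧ s(x, y) ≠ s(a, b)
    | none, some x => x = a ∨ x = b
    | some x, none => x = a ∨ x = b
    | none, none => False
  symm := ⟨by
    rintro (_ | x) (_ | y) h
    · exact h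
    · exact h
    · exact h
    · exact ⟨h.1.symm, by rw [Sym2.eq_swap]; exact h.2⟩⟩
  loopless := ⟨by
    rintro (_ | x) h
    · exact h
    · exact G.irrefl h.1⟩

variable {G : SimpleGraph V} {a b : V}

/-- the graph stays connected -/
theorem subd_connected (hc : G.Connected) (hab : G.Adj a b) : (subd G a b).Connected := by
  have hna : (subd G a b).Adj none (some a) := Or.inl rfl
  have hnb : (subd G a b).Adj none (some b) := Or.inr rfl
  have hstep : ∀ x y, G.Adj x y → (subd G a b).Reachable (some x) (some y) := by
    intro x y h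
    by_cases h1 : s(x, y) = s(a, b)
    · rcases Sym2.eq_iff.1 h1 with ⟨rfl, rfl⟩ | ⟨rfl, rfl⟩
      · exact hna.symm.reachable.trans hnb.reachable
      · exact hnb.symm.reachable.trans hna.reachable
    · exact Adj.reachable (G := subd G a b) (u := some x) (v := some y) ⟨h, h1⟩
  have hw : ∀ {x y} (_ : G.Walk x y), (subd G a b).Reachable (some x) (some y) := by
    intro x y w
    induction w with
    | nil => exact Reachable.refl _
    | cons h _ ih => exact (hstep _ _ h).trans ih
  have h0 : ∀ z, (subd G a b).Reachable (some a) z := by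
    rintro (_ | x)
    · exact hna.symm.reachable
    · obtain ⟨w⟩ := hc.preconnected a x
      exact hw w
  rw [connected_iff]
  exact ⟨fun x y => (h0 x).symm.trans (h0 y), ⟨none⟩⟩

open Classical in
/-- old and new darts -/
noncomputable def toD (G : SimpleGraph V) (a b : V) (_ : G.Adj a b) :
    G.Dart ⊕ Bool → (subd G a b).Dart
  | .inl d => if h : d.edge = s(a, b) then ⟨(some d.fst, none), by
        have h1 : s(d.fst, d.snd) = s(a, b) := h
        rcases Sym2.eq_iff.1 h1 with ⟨h2, _⟩ | ⟨h2, _⟩
        · exact Or.inl h2
        · exact Or.inr h2⟩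
      else ⟨(some d.fst, some d.snd), ⟨d.adj, h⟩⟩
  | .inr true => ⟨(none, some a), Or.inl rfl⟩
  | .inr false => ⟨(none, some b), Or.inr rfl⟩

variable {hab : G.Adj a b}

theorem toD_in {d : G.Dart} (h : d.edge = s(a, b)) :
    (toD G a b hab (.inl d)).toProd = (some d.fst, none) := by
  simp only [toD, dif_pos h]

theorem toD_out {d : G.Dart} (h : d.edge ≠ s(a, b)) :
    (toD G a b hab (.inl d)).toProd = (some d.fst, some d.snd) := by
  simp only [toD, dif_neg h]

theorem toD_fst (d : G.Dart) : (toD G a b hab (.inl d)).fst = some d.fst := by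
  by_cases h : d.edge = s(a, b)
  · exact congrArg Prod.fst (toD_in (hab := hab) h)
  · exact congrArg Prod.fst (toD_out (hab := hab) h)

theorem toD_true : (toD G a b hab (.inr true)).toProd = (none, some a) := rfl

theorem toD_false : (toD G a b hab (.inr false)).toProd = (none, some b) := rfl

theorem toD_bij : Function.Bijective (toD G a b hab) := by
  have hne : a ≠ b := hab.ne
  constructor
  · rintro (d | n) (d' | n') h
    · have h1 := congrArg Dart.toProd h
      by_cases k : d.edge = s(a, b) <;> by_cases k' : d'.edge = s(a, b)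
      · rw [toD_in k, toD_in k'] at h1
        have h2 : d.fst = d'.fst := Option.some.inj (congrArg Prod.fst h1)
        have k1 : s(d.fst, d.snd) = s(a, b) := k
        have k2 : s(d'.fst, d'.snd) = s(a, b) := k'
        have h3 : d.snd = d'.snd := by
          rcases Sym2.eq_iff.1 k1 with ⟨e1, e2⟩ | ⟨e1, e2⟩ <;>
            rcases Sym2.eq_iff.1 k2 with ⟨e3, e4⟩ | ⟨e3, e4⟩
          · rw [e2, e4]
          · exact absurd (e1.symm.trans (h2.trans e3)) hne
          · exact absurd (e3.symm.trans (h2.symm.trans e1)) hne
          · rw [e2, e4]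
        exact congrArg Sum.inl (Dart.ext _ _ (Prod.ext h2 h3))
      · rw [toD_in k, toD_out k'] at h1
        exact absurd (congrArg Prod.snd h1) (by simp)
      · rw [toD_out k, toD_in k'] at h1
        exact absurd (congrArg Prod.snd h1) (by simp)
      · rw [toD_out k, toD_out k'] at h1
        exact congrArg Sum.inl (Dart.ext _ _ (Prod.ext (Option.some.inj (congrArg Prod.fst h1))
          (Option.some.inj (congrArg Prod.snd h1))))
    · have h1 : (toD G a b hab (.inl d)).fst = (toD G a b hab (.inr n')).fst := by rw [h]
      rw [toD_fst] at h1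
      cases n'
      · exact absurd (h1.trans (congrArg Prod.fst (toD_false (hab := hab)))) (by simp)
      · exact absurd (h1.trans (congrArg Prod.fst (toD_true (hab := hab)))) (by simp)
    · have h1 : (toD G a b hab (.inl d')).fst = (toD G a b hab (.inr n)).fst := by rw [h]
      rw [toD_fst] at h1
      cases n
      · exact absurd (h1.trans (congrArg Prod.fst (toD_false (hab := hab)))) (by simp)
      · exact absurd (h1.trans (congrArg Prod.fst (toD_true (hab := hab)))) (by simp)
    · have h1 := congrArg (fun z : (subd G a b).Dart => z.toProd.2) h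
      cases n <;> cases n'
      · rfl
      · exact absurd (Option.some.inj h1).symm hne
      · exact absurd (Option.some.inj h1) hne
      · rfl
  · rintro ⟨⟨x, y⟩, h⟩
    rcases x with _ | x <;> rcases y with _ | y
    · exact h.elim
    · rcases h with rfl | rfl
      · exact ⟨.inr true, rfl⟩
      · exact ⟨.inr false, rfl⟩
    · rcases h with rfl | rfl
      · exact ⟨.inl ⟨(x, b), hab⟩, Dart.ext _ _ (toD_in rfl)⟩
      · exact ⟨.inl ⟨(x, a), hab.symm⟩, Dart.ext _ _ (toD_in Sym2.eq_swap)⟩
    · exact ⟨.inl ⟨(x, y), h.1⟩, Dart.ext _ _ (toD_out h.2)⟩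

/-- relations containing all steps contain all cycles -/
theorem rel_cycle {α : Type} {f : Equiv.Perm α} {S : α → α → Prop} (hr : ∀ x, S x x)
    (hs : ∀ x y, S x y → S y x) (ht : ∀ x y z, S x y → S y z → S x z) (h : ∀ x, S x (f x))
    {x y : α} (hxy : f.SameCycle x y) : S x y := by
  have hn : ∀ (n : ℤ) (d : α), S d ((f ^ n) d) := by
    intro n
    induction n using Int.induction_on with
    | zero => intro d; exact hr d
    | succ n ih =>
      intro d
      rw [zpow_add_one, Equiv.Perm.mul_apply]
      exact ht _ _ _ (h d) (ih _)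
    | pred n ih =>
      intro d
      have h3 := h (f⁻¹ d)
      rw [show f (f⁻¹ d) = d from Equiv.apply_symm_apply _ _] at h3
      rw [zpow_sub_one, Equiv.Perm.mul_apply]
      exact ht _ _ _ (hs _ _ h3) (ih _)
  obtain ⟨n, rfl⟩ := hxy
  exact hn n x

theorem card_edges_subd [Finite V] (hab : G.Adj a b) :
    Nat.card (subd G a b).edgeSet = Nat.card G.edgeSet + 1 := by
  classical
  have hD : Finite G.Dart := fin_dart
  have := Fintype.ofFinite V
  have : Fintype G.Dart := Fintype.ofFinite _
  have h1 := SimpleGraph.dart_card_eq_twice_card_edges G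
  have h2 := SimpleGraph.dart_card_eq_twice_card_edges (subd G a b)
  have h3 : Fintype.card (subd G a b).Dart = Fintype.card G.Dart + 2 := by
    rw [← Fintype.card_congr (Equiv.ofBijective _ (toD_bij (hab := hab))), Fintype.card_sum]
    rfl
  have h4 : Nat.card G.edgeSet = G.edgeFinset.card := by
    rw [Nat.card_eq_fintype_card, SimpleGraph.edgeFinset_card]
  have h5 : Nat.card (subd G a b).edgeSet = (subd G a b).edgeFinset.card := by
    rw [Nat.card_eq_fintype_card, SimpleGraph.edgeFinset_card]
  rw [h4, h5]
  have h6 : Fintype.card G.Dart = 2 * G.edgeFinset.card := by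
    convert h1
  omega

/-- **A plane graph stays plane when an edge is subdivided.** -/
theorem plane_subd [Finite V] (hc : G.Connected) (hab : G.Adj a b) {σ : Equiv.Perm G.Dart}
    (hσ : PlaneMap G σ) : ∃ σ' : Equiv.Perm (subd G a b).Dart, PlaneMap (subd G a b) σ' := by
  classical
  have hne : a ≠ b := hab.ne
  set x : G.Dart := ⟨(a, b), hab⟩ with hx
  set e : G.Dart ⊕ Bool ≃ (subd G a b).Dart := Equiv.ofBijective _ (toD_bij (hab := hab)) with he
  have hea : ∀ z, e z = toD G a b hab z := fun _ => rfl
  set π : Equiv.Perm (G.Dart ⊕ Bool) := Equiv.sumCongr σ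
    (⟨not, not, Bool.not_not, Bool.not_not⟩ : Equiv.Perm Bool) with hπ
  set σ' : Equiv.Perm (subd G a b).Dart := (e.symm.trans π).trans e with hσ'
  have hσe : ∀ z, σ' (e z) = e (π z) := by
    intro z
    show e (π (e.symm (e z))) = _
    rw [e.symm_apply_apply]
  have hσl : ∀ d, σ' (e (.inl d)) = e (.inl (σ d)) := fun d => hσe _
  have hσt : σ' (e (.inr true)) = e (.inr false) := hσe _
  have hσf : σ' (e (.inr false)) = e (.inr true) := hσe _
  -- reversal
  have hxe : x.edge = s(a, b) := rfl
  have hxe' : x.symm.edge = s(a, b) := Sym2.eq_swap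
  have hsx : (e (.inl x)).symm = e (.inr true) := by
    refine Dart.ext _ _ ?_
    rw [Dart.symm_toProd, hea, toD_in hxe]
    rfl
  have hsx' : (e (.inl x.symm)).symm = e (.inr false) := by
    refine Dart.ext _ _ ?_
    rw [Dart.symm_toProd, hea, toD_in hxe']
    rfl
  have hst : (e (.inr true)).symm = e (.inl x) := by rw [← hsx, Dart.symm_symm]
  have hsf : (e (.inr false)).symm = e (.inl x.symm) := by rw [← hsx', Dart.symm_symm]
  have hout : ∀ d : G.Dart, d.edge ≠ s(a, b) → (e (.inl d)).symm = e (.inl d.symm) := by
    intro d hd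
    have hd' : d.symm.edge ≠ s(a, b) := by rwa [Dart.edge_symm]
    refine Dart.ext _ _ ?_
    rw [Dart.symm_toProd, hea, hea, toD_out hd, toD_out hd']
    rfl
  have hin : ∀ d : G.Dart, d.edge = s(a, b) → d = x ∨ d = x.symm := by
    intro d hd
    have h1 : s(d.fst, d.snd) = s(a, b) := hd
    rcases Sym2.eq_iff.1 h1 with ⟨h2, h3⟩ | ⟨h2, h3⟩
    · exact Or.inl (Dart.ext _ _ (Prod.ext h2 h3))
    · exact Or.inr (Dart.ext _ _ (Prod.ext h2 h3))
  refine ⟨σ', plane_of_le (subd_connected hc hab) ?_ ?_ ?_⟩
  · -- vertices are preserved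
    intro d
    obtain ⟨z, rfl⟩ := e.surjective d
    rcases z with d | i
    · rw [hσl, hea, hea, toD_fst, toD_fst, hσ.fst]
    · cases i
      · rw [hσf]; rfl
      · rw [hσt]; rfl
  · -- cyclic at every vertex
    intro d d' h
    obtain ⟨z, rfl⟩ := e.surjective d
    obtain ⟨z', rfl⟩ := e.surjective d'
    have htf : σ'.SameCycle (e (.inr true)) (e (.inr false)) := ⟨1, by rw [zpow_one, hσt]⟩
    rcases z with d | i <;> rcases z' with d' | i'
    · rw [hea, hea, toD_fst, toD_fst] at h
      exact rel_cycle (S := fun d d' => σ'.SameCycle (e (.inl d)) (e (.inl d')))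
        (fun _ => Equiv.Perm.SameCycle.refl _ _) (fun _ _ h => h.symm)
        (fun _ _ _ h h' => h.trans h') (fun d => ⟨1, by rw [zpow_one, hσl]⟩)
        (hσ.cyc d d' (Option.some.inj h))
    · rw [hea, toD_fst] at h
      cases i' <;> exact absurd h (by simp [hea, toD])
    · rw [hea, hea, toD_fst] at h
      cases i <;> exact absurd h (by simp [toD])
    · cases i <;> cases i'
      · exact Equiv.Perm.SameCycle.refl _ _
      · exact htf.symm
      · exact htf
      · exact Equiv.Perm.SameCycle.refl _ _
  · -- Euler's formula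
    set F := Quotient (Equiv.Perm.SameCycle.setoid (faceNext σ)) with hF
    set F' := Quotient (Equiv.Perm.SameCycle.setoid (faceNext σ')) with hF'
    have hstp : ∀ d : G.Dart, (Quotient.mk _ (faceNext σ d) : F) = Quotient.mk _ d := fun d =>
      Quotient.sound ⟨-1, by simp⟩
    set c : G.Dart ⊕ Bool → F := fun z =>
      match z with
      | .inl d => Quotient.mk _ d
      | .inr true => Quotient.mk _ x.symm
      | .inr false => Quotient.mk _ x with hcdef
    have hinv : ∀ z, c (e.symm (faceNext σ' (e z))) = c z := by
      intro z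
      have hfn : faceNext σ' (e z) = σ' (e z).symm := rfl
      rw [hfn]
      rcases z with d | i
      · by_cases hd : d.edge = s(a, b)
        · rcases hin d hd with rfl | rfl
          · rw [hsx, hσt, e.symm_apply_apply]
          · rw [hsx', hσf, e.symm_apply_apply]
        · rw [hout d hd, hσl, e.symm_apply_apply]
          exact hstp d
      · cases i
        · rw [hsf, hσl, e.symm_apply_apply]
          exact hstp x
        · rw [hst, hσl, e.symm_apply_apply]
          exact hstp x.symm
    have hinv' : ∀ d : (subd G a b).Dart, c (e.symm (faceNext σ' d)) = c (e.symm d) := by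
      intro d
      obtain ⟨z, rfl⟩ := e.surjective d
      rw [hinv, e.symm_apply_apply]
    let C : F' → F := Quotient.lift (fun d => c (e.symm d)) fun d d' h =>
      cyc_const (c := fun d => c (e.symm d)) hinv' h
    have hC : Function.Surjective C := by
      intro f
      induction f using Quotient.inductionOn with
      | h d =>
        refine ⟨Quotient.mk _ (e (.inl d)), ?_⟩
        show c (e.symm (e (.inl d))) = _
        rw [e.symm_apply_apply]
    have hDf : Finite G.Dart := fin_dart
    have hDf' : Finite (subd G a b).Dart := fin_dart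
    have hFF : Nat.card F ≤ Nat.card F' := Nat.card_le_card_of_surjective C hC
    have hV : Nat.card (Option V) = Nat.card V + 1 := Finite.card_option
    have hE := card_edges_subd hab
    have h : Nat.card V + Nat.card F = Nat.card G.edgeSet + 2 := hσ.euler
    rw [hV, hE]
    omega

end Vale.Agent.P235.R2.H673
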