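/-
P235 (helper673).  Every plane graph with natural lengths sits isometrically in a plane graph
with unit lengths; parities are kept.
-/
import Vale.Agent.P235.R2.H673.Subd
import Vale.Agent.P235.R2.H802.Met

set_option linter.unusedSectionVars false

namespace Vale.Agent.P235.R2.H673

open SimpleGraph Vale.Agent.P235.Tight

variable {V : Type} {G : SimpleGraph V} {a b : V}

/-- the lengths on the subdivided graph: `1` and `m ab - 1` -/
noncomputable def subLen (m : Sym2 V → ℕ) (a b : V) (e : Sym2 (Option V)) : ℕ := by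
  classical
  exact if e = s(none, some a) then 1 else if e = s(none, some b) then m s(a, b) - 1
    else m (e.map fun o => o.getD a)

theorem subLen_a (m : Sym2 V → ℕ) : subLen m a b s(none, some a) = 1 := by
  simp [subLen]

theorem subLen_b (m : Sym2 V → ℕ) (hne : a ≠ b) :
    subLen m a b s(none, some b) = m s(a, b) - 1 := by
  have h : ¬ s((none : Option V), some b) = s(none, some a) := by
    intro h
    rcases Sym2.eq_iff.1 h with ⟨_, h2⟩ | ⟨h1, _⟩
    · exact hne (Option.some.inj h2).symm
    · exact absurd h1 (by simp)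
  simp only [subLen, if_neg h, if_true]

theorem subLen_old (m : Sym2 V → ℕ) (x y : V) :
    subLen m a b s(some x, some y) = m s(x, y) := by
  have h : ∀ z : V, ¬ s(some x, some y) = s((none : Option V), some z) := by
    intro z h
    rcases Sym2.eq_iff.1 h with ⟨h1, _⟩ | ⟨_, h2⟩
    · exact absurd h1 (by simp)
    · exact absurd h2 (by simp)
  simp only [subLen, if_neg (h a), if_neg (h b)]
  rfl

theorem subLen_a' (m : Sym2 V → ℕ) : subLen m a b s(some a, none) = 1 := by
  rw [Sym2.eq_swap, subLen_a]

theorem subLen_b' (m : Sym2 V → ℕ) (hne : a ≠ b) :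
    subLen m a b s(some b, none) = m s(a, b) - 1 := by
  rw [Sym2.eq_swap, subLen_b m hne]

/-- a property of all edges of the subdivided graph -/
theorem subd_all {P : Option V → Option V → Prop} (hs : ∀ x y, P x y → P y x)
    (ha : P none (some a)) (hb : P none (some b))
    (ho : ∀ x y, G.Adj x y → s(x, y) ≠ s(a, b) → P (some x) (some y)) :
    ∀ x y, (subd G a b).Adj x y → P x y := by
  rintro (_ | x) (_ | y) h
  · exact h.elim
  · rcases h with rfl | rfl
    · exact ha
    · exact hb
  · rcases h with rfl | rfl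
    · exact hs _ _ ha
    · exact hs _ _ hb
  · exact ho x y h.1 h.2

theorem subLen_pos {m : Sym2 V → ℕ} (hm : ∀ u v, G.Adj u v → 1 ≤ m s(u, v))
    (hab : G.Adj a b) (h2 : 2 ≤ m s(a, b)) :
    ∀ x y, (subd G a b).Adj x y → 1 ≤ subLen m a b s(x, y) := by
  refine subd_all (fun x y h => by rw [Sym2.eq_swap]; exact h) ?_ ?_ ?_
  · rw [subLen_a]
  · rw [subLen_b m hab.ne]; omega
  · intro x y h _
    rw [subLen_old]
    exact hm x y h

/-- **Subdividing does not change the metric.** -/
theorem pd_subd (hc : G.Connected) {m : Sym2 V → ℕ} (hm : ∀ u v, G.Adj u v → 1 ≤ m s(u, v))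
    (hab : G.Adj a b) (h2 : 2 ≤ m s(a, b)) (x y : V) :
    pathDist (subd G a b) (fun e => (subLen m a b e : ℝ)) (some x) (some y) =
      pathDist G (fun e => (m e : ℝ)) x y := by
  have hc' := subd_connected hc hab
  have hpos : ∀ u v, G.Adj u v → 0 < (fun e => (m e : ℝ)) s(u, v) := fun u v h => by
    have := hm u v h
    show (0 : ℝ) < (m s(u, v) : ℝ)
    exact_mod_cast this
  have hpos' : ∀ u v, (subd G a b).Adj u v →
      0 < (fun e => (subLen m a b e : ℝ)) s(u, v) := fun u v h => by
    have := subLen_pos hm hab h2 u v h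
    show (0 : ℝ) < (subLen m a b s(u, v) : ℝ)
    exact_mod_cast this
  have hla : ((subLen m a b s(none, some a) : ℕ) : ℝ) = 1 := by rw [subLen_a]; simp
  have hlb : ((subLen m a b s(none, some b) : ℕ) : ℝ) = m s(a, b) - 1 := by
    rw [subLen_b m hab.ne, Nat.cast_sub (by omega)]; simp
  have hm2 : (2 : ℝ) ≤ m s(a, b) := by exact_mod_cast h2
  refine pd_eq hc hc' hpos hpos' some ?_ ?_ x y
  · intro u v h
    show pathDist (subd G a b) (fun e => (subLen m a b e : ℝ)) (some u) (some v) ≤
      (m s(u, v) : ℝ)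
    have hna : (subd G a b).Adj none (some a) := Or.inl rfl
    have hnb : (subd G a b).Adj none (some b) := Or.inr rfl
    have k : pathDist (subd G a b) (fun e => (subLen m a b e : ℝ)) (some a) (some b) ≤
        (m s(a, b) : ℝ) := by
      have h1 := pd_tri (ℓ := fun e => (subLen m a b e : ℝ)) hc' hpos' (some a) none (some b)
      have h3 := pd_adj (ℓ := fun e => (subLen m a b e : ℝ)) hpos' hna
      have h4 := pd_adj (ℓ := fun e => (subLen m a b e : ℝ)) hpos' hnb
      rw [pd_symm] at h3
      have h3' : pathDist (subd G a b) (fun e => (subLen m a b e : ℝ)) (some a) none ≤ 1 :=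
        h3.trans hla.le
      have h4' : pathDist (subd G a b) (fun e => (subLen m a b e : ℝ)) none (some b) ≤
        m s(a, b) - 1 := h4.trans hlb.le
      linarith
    by_cases he : s(u, v) = s(a, b)
    · rw [he]
      rcases Sym2.eq_iff.1 he with ⟨rfl, rfl⟩ | ⟨rfl, rfl⟩
      · exact k
      · rw [pd_symm]; exact k
    · have hadj : (subd G a b).Adj (some u) (some v) := ⟨h, he⟩
      have h1 := pd_adj (ℓ := fun e => (subLen m a b e : ℝ)) hpos' hadj
      have h3 : ((subLen m a b s(some u, some v) : ℕ) : ℝ) = m s(u, v) := by rw [subLen_old]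
      exact h1.trans h3.le
  · intro x
    set f : V → ℝ := fun v => pathDist G (fun e => (m e : ℝ)) x v with hf
    have hfab : |f a - f b| ≤ m s(a, b) := pd_lip hc hpos x a b hab
    have hfab' := abs_le.1 hfab
    refine ⟨fun o => o.elim (min (f a + 1) (f b + (m s(a, b) - 1))) f, ?_, fun y => rfl⟩
    refine subd_all (P := fun u v => |Option.elim u (min (f a + 1) (f b + (m s(a, b) - 1))) f -
      Option.elim v (min (f a + 1) (f b + (m s(a, b) - 1))) f| ≤ (subLen m a b s(u, v) : ℝ))
      ?_ ?_ ?_ ?_
    · intro u v h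
      rw [abs_sub_comm, Sym2.eq_swap (a := v) (b := u)]
      exact h
    · show |min (f a + 1) (f b + (m s(a, b) - 1)) - f a| ≤ _
      rw [hla, abs_le]
      constructor
      · have : f a - 1 ≤ min (f a + 1) (f b + (m s(a, b) - 1)) :=
          le_min (by linarith) (by linarith [hfab'.1, hfab'.2])
        linarith
      · have := min_le_left (f a + 1) (f b + (m s(a, b) - 1))
        linarith
    · show |min (f a + 1) (f b + (m s(a, b) - 1)) - f b| ≤ _
      rw [hlb, abs_le]
      constructor
      · have : f b - (m s(a, b) - 1) ≤ min (f a + 1) (f b + (m s(a, b) - 1)) :=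
          le_min (by linarith [hfab'.1, hfab'.2]) (by linarith)
        linarith
      · have := min_le_right (f a + 1) (f b + (m s(a, b) - 1))
        linarith
    · intro u v h _
      show |f u - f v| ≤ _
      have h3 : ((subLen m a b s(some u, some v) : ℕ) : ℝ) = m s(u, v) := by rw [subLen_old]
      rw [h3]
      exact pd_lip hc hpos x u v h

/-- parities are kept -/
theorem par_subd {m : Sym2 V → ℕ} {c : V → Bool} (hab : G.Adj a b) (h2 : 2 ≤ m s(a, b))
    (hc : ∀ u v, G.Adj u v → (c u = c v ↔ Even (m s(u, v)))) :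
    ∀ u v, (subd G a b).Adj u v →
      (Option.elim u (!(c a)) c = Option.elim v (!(c a)) c ↔ Even (subLen m a b s(u, v))) := by
  refine subd_all (P := fun u v => (Option.elim u (!(c a)) c = Option.elim v (!(c a)) c ↔
    Even (subLen m a b s(u, v)))) ?_ ?_ ?_ ?_
  · intro u v h
    rw [Sym2.eq_swap (a := v) (b := u), eq_comm]
    exact h
  · show (!(c a)) = c a ↔ _
    rw [subLen_a]
    simp
  · show (!(c a)) = c b ↔ _
    rw [subLen_b m hab.ne]
    have h := hc a b hab
    have h3 : Even (m s(a, b) - 1) ↔ ¬ Even (m s(a, b)) := by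
      rw [Nat.even_sub (by omega)]
      simp
    rw [h3, ← h]
    cases c a <;> cases c b <;> simp
  · intro x y h _
    show c x = c y ↔ _
    rw [subLen_old]
    exact hc x y h

/-- exactly two neighbours -/
def Two (G : SimpleGraph V) (v : V) : Prop := ∃ p q, p ≠ q ∧ ∀ x, G.Adj v x ↔ x = p ∨ x = q

theorem two_none (hab : G.Adj a b) : Two (subd G a b) none := by
  refine ⟨some a, some b, fun h => hab.ne (Option.some.inj h), ?_⟩
  rintro (_ | x)
  · exact ⟨fun h => h.elim, fun h => by simp at h⟩
  · exact ⟨fun h => h.imp (congrArg some) (congrArg some),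
      fun h => h.imp Option.some.inj Option.some.inj⟩

theorem two_some (hab : G.Adj a b) {w : V} (h : Two G w) : Two (subd G a b) (some w) := by
  classical
  obtain ⟨p, q, hpq, hN⟩ := h
  obtain ⟨F, F1, F2⟩ : ∃ F : V → Option V, (∀ x, s(w, x) = s(a, b) → F x = none) ∧
      ∀ x, s(w, x) ≠ s(a, b) → F x = some x :=
    ⟨fun x => if s(w, x) = s(a, b) then none else some x, fun x h => if_pos h,
      fun x h => if_neg h⟩
  have hFN : ∀ x', (subd G a b).Adj (some w) x' ↔ ∃ x, G.Adj w x ∧ x' = F x := by
    rintro (_ | x)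
    · constructor
      · rintro (rfl | rfl)
        · exact ⟨b, hab, (F1 _ rfl).symm⟩
        · exact ⟨a, hab.symm, (F1 _ Sym2.eq_swap).symm⟩
      · rintro ⟨x, _, h2⟩
        show w = a ∨ w = b
        by_cases h3 : s(w, x) = s(a, b)
        · rcases Sym2.eq_iff.1 h3 with ⟨h4, _⟩ | ⟨h4, _⟩
          · exact Or.inl h4
          · exact Or.inr h4
        · rw [F2 _ h3] at h2
          exact absurd h2 (by simp)
    · constructor
      · rintro ⟨h1, h2⟩
        exact ⟨x, h1, (F2 _ h2).symm⟩
      · rintro ⟨y, h1, h2⟩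
        by_cases h3 : s(w, y) = s(a, b)
        · rw [F1 _ h3] at h2
          exact absurd h2 (by simp)
        · rw [F2 _ h3, Option.some.injEq] at h2
          subst h2
          exact ⟨h1, h3⟩
  refine ⟨F p, F q, ?_, ?_⟩
  · intro h
    by_cases h3 : s(w, p) = s(a, b) <;> by_cases h4 : s(w, q) = s(a, b)
    · have h5 := h3.trans h4.symm
      rcases Sym2.eq_iff.1 h5 with ⟨_, h6⟩ | ⟨h6, h7⟩
      · exact hpq h6
      · exact hpq (h7.trans h6)
    · rw [F1 _ h3, F2 _ h4] at h
      exact absurd h (by simp)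
    · rw [F2 _ h3, F1 _ h4] at h
      exact absurd h (by simp)
    · rw [F2 _ h3, F2 _ h4, Option.some.injEq] at h
      exact hpq h
  · intro x'
    rw [hFN]
    constructor
    · rintro ⟨x, hx, rfl⟩
      rcases (hN x).1 hx with rfl | rfl
      · exact Or.inl rfl
      · exact Or.inr rfl
    · rintro (rfl | rfl)
      · exact ⟨p, (hN p).2 (Or.inl rfl), rfl⟩
      · exact ⟨q, (hN q).2 (Or.inr rfl), rfl⟩

/-- total excess length -/
noncomputable def exc (G : SimpleGraph V) (m : Sym2 V → ℕ) : ℕ :=
  ∑ᶠ d : G.Dart, (m d.edge - 1)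

theorem exc_lt [Finite V] {m : Sym2 V → ℕ} (hab : G.Adj a b) (h2 : 2 ≤ m s(a, b)) :
    exc (subd G a b) (subLen m a b) < exc G m := by
  classical
  have hD : Finite G.Dart := fin_dart
  have hD' : Finite (subd G a b).Dart := fin_dart
  have : Fintype G.Dart := Fintype.ofFinite _
  have : Fintype (subd G a b).Dart := Fintype.ofFinite _
  set x : G.Dart := ⟨(a, b), hab⟩ with hx
  set e : G.Dart ⊕ Bool ≃ (subd G a b).Dart := Equiv.ofBijective _ (toD_bij (hab := hab)) with he
  have hxe : x.edge = s(a, b) := rfl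
  have hed : ∀ z, (e z).edge = s((toD G a b hab z).toProd.1, (toD G a b hab z).toProd.2) :=
    fun _ => rfl
  unfold exc
  rw [finsum_eq_sum_of_fintype, finsum_eq_sum_of_fintype, ← Equiv.sum_comp e,
    Fintype.sum_sum_type]
  have hB : ∑ i : Bool, (subLen m a b (e (Sum.inr i)).edge - 1) = m s(a, b) - 2 := by
    rw [Fintype.sum_bool, hed, hed, toD_true, toD_false]
    show subLen m a b s(none, some a) - 1 + (subLen m a b s(none, some b) - 1) = _
    rw [subLen_a, subLen_b m hab.ne]
    omega
  rw [hB]
  have h3 : ∀ d : G.Dart, (subLen m a b (e (Sum.inl d)).edge - 1) +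
      (if d = x then m s(a, b) - 2 else 0) ≤ m d.edge - 1 := by
    intro d
    by_cases hd : d = x
    · subst hd
      rw [if_pos rfl, hed, toD_in hxe]
      show subLen m a b s(some a, none) - 1 + (m s(a, b) - 2) ≤ m s(a, b) - 1
      rw [subLen_a']
      omega
    · rw [if_neg hd, add_zero]
      by_cases hd' : d.edge = s(a, b)
      · rw [hed, toD_in hd', hd']
        have h1 : s(d.fst, d.snd) = s(a, b) := hd'
        rcases Sym2.eq_iff.1 h1 with ⟨h2, h3⟩ | ⟨h2, h3⟩
        · exact absurd (Dart.ext _ _ (Prod.ext h2 h3)) hd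
        · show subLen m a b s(some d.fst, none) - 1 ≤ _
          rw [h2, subLen_b' m hab.ne]
          omega
      · rw [hed, toD_out hd']
        show subLen m a b s(some d.fst, some d.snd) - 1 ≤ _
        rw [subLen_old]
        exact le_refl _
  have h4 : ∑ d : G.Dart, ((subLen m a b (e (Sum.inl d)).edge - 1) +
      (if d = x then m s(a, b) - 2 else 0)) < ∑ d : G.Dart, (m d.edge - 1) := by
    refine Finset.sum_lt_sum (fun d _ => h3 d) ⟨x, Finset.mem_univ _, ?_⟩
    rw [if_pos rfl, hed, toD_in hxe]
    show subLen m a b s(some a, none) - 1 + (m s(a, b) - 2) < m s(a, b) - 1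
    rw [subLen_a']
    omega
  rw [Finset.sum_add_distrib, Finset.sum_ite_eq' Finset.univ x, if_pos (Finset.mem_univ _)] at h4
  exact h4

theorem walk_unit {m : Sym2 V → ℕ} (hm : ∀ u v, G.Adj u v → m s(u, v) = 1) {x y : V}
    (w : G.Walk x y) : (w.edges.map fun e => (m e : ℝ)).sum = w.length := by
  induction w with
  | nil => simp
  | @cons a b c hab p ih =>
    simp only [Walk.edges_cons, List.map_cons, List.sum_cons, ih, Walk.length_cons, hm a b hab]
    push_cast
    ring

theorem pd_unit (hc : G.Connected) {m : Sym2 V → ℕ} (hm : ∀ u v, G.Adj u v → m s(u, v) = 1)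
    (x y : V) : (G.dist x y : ℝ) = pathDist G (fun e => (m e : ℝ)) x y := by
  have hpos : ∀ u v, G.Adj u v → 0 < (fun e => (m e : ℝ)) s(u, v) := fun u v h => by
    show (0 : ℝ) < (m s(u, v) : ℝ)
    rw [hm u v h]
    norm_num
  refine le_antisymm (le_pd hc fun w => ?_) ?_
  · have h1 := walk_unit hm w
    have h2 : (w.edges.map fun e => (m e : ℝ)).sum = w.length := h1
    rw [h2]
    exact_mod_cast dist_le w
  · obtain ⟨w, hw⟩ := hc.exists_walk_length_eq_dist x y
    have h1 := pd_le (ℓ := fun e => (m e : ℝ)) hpos w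
    rw [← hw]
    exact h1.trans (walk_unit hm w).le

/-- **From natural lengths to unit lengths.** -/
theorem to_unit : ∀ (n : ℕ) (V : Type) [Finite V] (G : SimpleGraph V) (σ : Equiv.Perm G.Dart)
    (m : Sym2 V → ℕ) (c : V → Bool) (S : Set V), G.Connected → PlaneMap G σ →
    (∀ u v, G.Adj u v → 1 ≤ m s(u, v)) →
    (∀ u v, G.Adj u v → (c u = c v ↔ Even (m s(u, v)))) →
    (∀ v ∉ S, Two G v) → exc G m ≤ n →
    ∃ (V' : Type) (_ : Finite V') (G' : SimpleGraph V') (σ' : Equiv.Perm G'.Dart)
      (c' : V' → Bool) (ι : V → V'), G'.Connected ∧ PlaneMap G' σ' ∧ Function.Injective ι ∧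
      (∀ u v, G'.Adj u v → c' u ≠ c' v) ∧ (∀ v ∉ ι '' S, Two G' v) ∧
      ∀ x y, (G'.dist (ι x) (ι y) : ℝ) = pathDist G (fun e => (m e : ℝ)) x y := by
  intro n
  induction n with
  | zero =>
    intro V _ G σ m c S hc hσ hm hpar hS hn
    have h1 : ∀ u v, G.Adj u v → m s(u, v) = 1 := by
      intro u v huv
      by_contra hne
      have h2 : 2 ≤ m s(u, v) := by
        have := hm u v huv
        omega
      have := exc_lt huv h2
      omega
    refine ⟨V, inferInstance, G, σ, c, id, hc, hσ, fun _ _ h => h, ?_, ?_, ?_⟩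
    · intro u v huv h
      have := (hpar u v huv).1 h
      rw [h1 u v huv] at this
      exact absurd this (by decide)
    · rw [Set.image_id]
      exact hS
    · intro x y
      exact pd_unit hc h1 x y
  | succ n ih =>
    intro V _ G σ m c S hc hσ hm hpar hS hn
    by_cases h1 : ∀ u v, G.Adj u v → m s(u, v) = 1
    · refine ⟨V, inferInstance, G, σ, c, id, hc, hσ, fun _ _ h => h, ?_, ?_, ?_⟩
      · intro u v huv h
        have := (hpar u v huv).1 h
        rw [h1 u v huv] at this
        exact absurd this (by decide)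
      · rw [Set.image_id]
        exact hS
      · intro x y
        exact pd_unit hc h1 x y
    · push Not at h1
      obtain ⟨a, b, hab, hne⟩ := h1
      have h2 : 2 ≤ m s(a, b) := by
        have := hm a b hab
        omega
      obtain ⟨σ₁, hσ₁⟩ := plane_subd hc hab hσ
      obtain ⟨V', hV', G', σ', c', ι, k1, k2, k3, k4, k5, k6⟩ :=
        ih (Option V) (subd G a b) σ₁ (subLen m a b) (fun o => Option.elim o (!(c a)) c)
          (some '' S) (subd_connected hc hab) hσ₁ (subLen_pos hm hab h2)
          (par_subd hab h2 hpar) (by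
            rintro (_ | v) hv
            · exact two_none hab
            · exact two_some hab (hS v fun h => hv ⟨v, h, rfl⟩))
          (by
            have := exc_lt hab h2
            omega)
      refine ⟨V', hV', G', σ', c', fun v => ι (some v), k1, k2, ?_, k4, ?_, ?_⟩
      · intro x y h
        exact Option.some.inj (k3 h)
      · intro v hv
        refine k5 v ?_
        rintro ⟨_, ⟨w, hw, rfl⟩, rfl⟩
        exact hv ⟨w, hw, rfl⟩
      · intro x y
        rw [k6, pd_subd hc hm hab h2]

end Vale.Agent.P235.R2.H673
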