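/-
P235 (helper673).  Row AP6: subdivision and rounding.
-/
import Vale.Agent.P235.R2.AP.Defs
import Vale.Agent.P235.R2.H673.Unit
import Vale.Agent.P235.R2.H222.Round
import Mathlib.Combinatorics.SimpleGraph.Coloring.Constructions

namespace Vale.Agent.P235.R2.H673

open SimpleGraph Vale.Agent.P235.Tight

variable {V : Type} {G : SimpleGraph V}

/-- in a bipartite connected graph the distances from a root differ by one along every edge -/
theorem unitH_of_bip (hc : G.Connected) {c : V → Bool} (h : ∀ u v, G.Adj u v → c u ≠ c v) (r : V) :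
    AP.UnitH G (fun v => (G.dist r v : ℤ)) := by
  let c' : G.Coloring Bool := Coloring.mk c fun {u v} huv => h u v huv
  have hpar : ∀ v, Even (G.dist r v) ↔ (c r = true ↔ c v = true) := by
    intro v
    obtain ⟨w, hw⟩ := hc.exists_walk_length_eq_dist r v
    rw [← hw]
    exact c'.even_length_iff_congr w
  intro a b hab
  show (G.dist r b : ℤ) = G.dist r a + 1 ∨ (G.dist r a : ℤ) = G.dist r b + 1
  have h1 : G.dist r b ≤ G.dist r a + 1 := by
    have h2 := hc.dist_triangle (u := r) (v := a) (w := b)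
    rw [dist_eq_one_iff_adj.2 hab] at h2
    exact h2
  have h1' : G.dist r a ≤ G.dist r b + 1 := by
    have h2 := hc.dist_triangle (u := r) (v := b) (w := a)
    rw [dist_eq_one_iff_adj.2 hab.symm] at h2
    exact h2
  have h3 : G.dist r a ≠ G.dist r b := by
    intro he
    have ha := hpar a
    have hb := hpar b
    rw [he, hb] at ha
    have := h a b hab
    revert ha this
    cases c r <;> cases c a <;> cases c b <;> simp
  omega

theorem card_two {v : V} (h : Two G v) : Nat.card (G.neighborSet v) = 2 := by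
  obtain ⟨p, q, hpq, hN⟩ := h
  have h1 : G.neighborSet v = {p, q} := by
    ext x
    rw [mem_neighborSet, hN]
    rfl
  rw [h1]
  exact Set.ncard_pair hpq

/-- **AP6.** -/
theorem rowRound : AP.RowRound := by
  intro C H V _ G σ ℓ hc hσ hℓ
  have hne : Nonempty V := hc.nonempty
  obtain ⟨v₀⟩ := hne
  -- one natural length function
  have key : ∀ m : Sym2 V → ℕ, (∀ e ∈ G.edgeSet, Even (m e) ∧ 2 ≤ m e) →
      EmbedsL1 (pathDist G fun e => (m e : ℝ)) (C (Nat.card V)) ∧
        (C (Nat.card V) < 0 → Subsingleton V) := by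
    intro m hm
    obtain ⟨V', hV', G', σ', c', ι, k1, k2, k3, k4, k5, k6⟩ :=
      to_unit (exc G m) V G σ m (fun _ => true) Set.univ hc hσ
        (fun u v h => by have := (hm s(u, v) h).2; omega)
        (fun u v h => by simp [(hm s(u, v) h).1]) (fun v hv => absurd (Set.mem_univ v) hv)
        (le_refl _)
    have h1 := H V' G' σ' (ι v₀) (ι '' Set.univ) k1 k2 (unitH_of_bip k1 k4 _)
      ⟨v₀, Set.mem_univ _, rfl⟩ (fun v hv => by
        by_contra h
        exact hv (card_two (k5 v h)))
    have h2 : Nat.card (ι '' Set.univ : Set V') = Nat.card V := by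
      rw [Set.image_univ]
      exact (Nat.card_congr (Equiv.ofInjective ι k3)).symm
    rw [h2] at h1
    obtain ⟨Ω, hΩ, μ, f, hf⟩ := h1
    have h3 : ∀ x y : V, pathDist G (fun e => (m e : ℝ)) x y ≤
        ‖f ⟨ι x, x, Set.mem_univ _, rfl⟩ - f ⟨ι y, y, Set.mem_univ _, rfl⟩‖ ∧
        ‖f ⟨ι x, x, Set.mem_univ _, rfl⟩ - f ⟨ι y, y, Set.mem_univ _, rfl⟩‖ ≤
          C (Nat.card V) * pathDist G (fun e => (m e : ℝ)) x y := by
      intro x y
      rw [← k6]
      exact hf ⟨ι x, x, Set.mem_univ _, rfl⟩ ⟨ι y, y, Set.mem_univ _, rfl⟩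
    refine ⟨⟨Ω, hΩ, μ, fun x => f ⟨ι x, x, Set.mem_univ _, rfl⟩, h3⟩, fun hC => ⟨fun x y => ?_⟩⟩
    by_contra hxy
    have h4 : 0 < G'.dist (ι x) (ι y) := k1.pos_dist_of_ne fun h => hxy (k3 h)
    have h5 : (0 : ℝ) < pathDist G (fun e => (m e : ℝ)) x y := by
      rw [← k6]
      exact_mod_cast h4
    have h6 := (h3 x y).1.trans (h3 x y).2
    nlinarith
  rcases le_or_gt 0 (C (Nat.card V)) with hC | hC
  · have h := H222.embeds_of_round hc hℓ one_pos hC fun m hm => (key m hm).1
    have e : (1 + 1 : ℝ) * C (Nat.card V) = 2 * C (Nat.card V) := by ring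
    rwa [e] at h
  · have hs : Subsingleton V := (key (fun _ => 2) fun e _ => ⟨even_two, le_refl _⟩).2 hC
    refine ⟨Unit, ⊤, 0, fun _ => 0, fun x y => ?_⟩
    obtain rfl := Subsingleton.elim x y
    have h1 : pathDist G ℓ x x = 0 := pd_self (fun u v h => hℓ _ h) x
    rw [h1]
    simp

end Vale.Agent.P235.R2.H673
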